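import Vale.Agent.P074.Counter
import Vale.Agent.P074.Quarter

open Vale.Agent.P074

theorem Vale.Agent.Results.P074.Bounds.result :
    ∀ d : ℕ, 2 ≤ d →
      Admissible d (1 / 4) ∧ (∀ α : ℝ, 1 / 3 < α → ¬ Admissible d α) ∧
      1 / 4 ≤ sSup {α : ℝ | Admissible d α} ∧ sSup {α : ℝ | Admissible d α} ≤ 1 / 3 := by
  intro d hd
  have h1 : Admissible d (1 / 4) := admissible_quarter d
  have h2 : ∀ α : ℝ, 1 / 3 < α → ¬ Admissible d α := fun α hα => not_admissible_of_gt hd hα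
  have h3 : ∀ α ∈ {α : ℝ | Admissible d α}, α ≤ 1 / 3 := by
    intro α hα
    by_contra hcon
    exact h2 α (not_le.1 hcon) hα
  exact ⟨h1, h2, le_csSup ⟨1 / 3, h3⟩ h1, csSup_le ⟨1 / 4, h1⟩ h3⟩
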