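import Vale.Agent.P074.Counter
import Vale.Agent.P074.Endgame
import Vale.Agent.P074.Mono

open Vale.Agent.P074

theorem Vale.Agent.Results.P074.Exact.result :
    ∀ d : ℕ, 2 ≤ d →
      {α : ℝ | Admissible d α} = Set.Ioc (0 : ℝ) (1 / 3) ∧
      IsGreatest {α : ℝ | Admissible d α} (1 / 3) ∧
      sSup {α : ℝ | Admissible d α} = 1 / 3 ∧ ¬ Admissible d (1 / 2) := by
  intro d hd
  have h1 : Admissible d (1 / 3) := admissible_third (by omega)
  have h2 : ∀ α : ℝ, 1 / 3 < α → ¬ Admissible d α := fun α hα => not_admissible_of_gt hd hα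
  have h3 : IsGreatest {α : ℝ | Admissible d α} (1 / 3) := by
    refine ⟨h1, fun α hα => ?_⟩
    by_contra hcon
    exact h2 α (not_le.1 hcon) hα
  refine ⟨?_, h3, h3.csSup_eq, h2 _ (by norm_num)⟩
  ext α
  constructor
  · intro hα
    exact ⟨hα.1, h3.2 hα⟩
  · rintro ⟨ha, hb⟩
    exact h1.mono ha hb
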