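import Vale.Agent.P074.Counter

open Vale.Agent.P074

theorem Vale.Agent.Results.P074.UpperThird.result :
    ∀ d : ℕ, 2 ≤ d → (∀ α : ℝ, 1 / 3 < α → ¬ Admissible d α) ∧ ¬ Admissible d (1 / 2) :=
  fun _ hd => ⟨fun _ hα => not_admissible_of_gt hd hα, not_admissible_of_gt hd (by norm_num)⟩
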